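import Vale.Agent.P328.Cas.Main

/-!
# P328: a polynomial-time almost-uniform sampler for contingency tables with arbitrary margins

The program runs the chain that resamples a uniformly chosen `2 × 2` block, for polynomially many
steps.  Its spectral gap is bounded below by a polynomial in `1/m`, `1/n` (block inequality for two
columns, proved with the total Casimir operator of `SU(2)`), uniformly in the margins.
-/

namespace Vale.Agent.Results.P328.Sampler

open Vale.Agent.P328

/-- There are a program of the randomized random-access machine (fair coin flips, logarithmic
cost) and an exponent `k` such that for all `m, n ≥ 1`, all margins `(r, c)` with equal sums and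
all `ε ∈ (0, 1)` the program, on input `(r, c)` and the least `t` with `2 ^ (-t) ≤ ε`, always
halts with cost at most `(L + log₂ (1/ε)) ^ k` (`L` the input length), outputs a table of `Ω(r,c)`,
and the law of the output is within `ε` of the uniform law on `Ω(r,c)` in total variation. -/
theorem result : ∃ (P : Prog) (k : ℕ), IsAlmostUniformSampler P k :=
  Vale.Agent.P328.Cas.almost_uniform_sampler

end Vale.Agent.Results.P328.Sampler
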